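import Mathlib
import Vale.Agent.H18.P184Defs
import Vale.Agent.H18.P184Bridge

/-!
# P184: a centraliser criterion for the vanishing of Hattori-Stallings coefficients over `ℓ¹(G)`
-/

namespace Vale.Agent.Results.P184.Centralizer

open Vale.Agent.P184

universe u

/-- Let `G` be any group and `g ∈ G`. Suppose there are a subadditive function `ℓ` on `G` (for
example a word length, or `x ↦ d(p, x p)` for an isometric action) and a function `φ` which is
a homomorphism to `ℝ` on the centraliser of `g`, is bounded there by `ℓ`, and is nonzero at `g`.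
Then the coefficient at the class of `g` vanishes for every idempotent matrix over `ℓ¹(G)`. -/
theorem result (G : Type u) [Group G] (g : G) (ℓ φ : G → ℝ)
    (hℓ : ∀ x y : G, ℓ (x * y) ≤ ℓ x + ℓ y)
    (hφ : ∀ x y : G, Commute g x → Commute g y → φ (x * y) = φ x + φ y)
    (hb : ∀ x : G, Commute g x → |φ x| ≤ ℓ x) (h0 : φ g ≠ 0)
    (q : ℕ) (e : Fin q → Fin q → G → ℂ) (he : IsIdempotentL1 e) :
    hsCoeff e (ConjClasses.mk g) = 0 :=
  Vale.Agent.H18.hsCoeff_eq_zero_of_controlled g ⟨ℓ, φ, hℓ, hφ, hb, h0⟩ e he

end Vale.Agent.Results.P184.Centralizer
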