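import Mathlib
import Vale.Agent.H18.P184Defs
import Vale.Agent.H18.P184Free

/-!
# P184: `ℓ¹`-Bass for linear groups and closure under free products
-/

namespace Vale.Agent.Results.P184.Linear

open Vale.Agent.P184

universe u v

/-- (1) Let `G` be any group, `ρ : G → GL_n(F)` a linear representation over any field `F`
(faithful or not), and `g ∈ G` such that no positive power of `ρ(g)` is unipotent. Then the
Hattori-Stallings coefficient at the class of `g` of every idempotent matrix over `ℓ¹(G)` is `0`.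

(2) If `G` is a group which is linear over a field of positive characteristic, then all
coefficients at classes of elements of infinite order vanish.

(3) If moreover `G` has only finitely many conjugacy classes of elements of finite order (for
example if `G` is torsion-free), then `G` satisfies the `ℓ¹`-Bass conjecture.

(4) The class of groups satisfying the `ℓ¹`-Bass conjecture is closed under arbitrary free
products. -/
theorem result :
    (∀ (G : Type u) [Group G] (F : Type v) [Field F] (n : ℕ) (ρ : G →* GL (Fin n) F) (g : G),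
      (∀ k : ℕ, 0 < k → ¬ IsNilpotent ((ρ g : Matrix (Fin n) (Fin n) F) ^ k - 1)) →
      ∀ (q : ℕ) (e : Fin q → Fin q → G → ℂ), IsIdempotentL1 e →
        hsCoeff e (ConjClasses.mk g) = 0) ∧
    (∀ (G : Type u) [Group G] (F : Type v) [Field F] (p : ℕ) (_ : p.Prime) (_ : CharP F p)
      (n : ℕ) (ρ : G →* GL (Fin n) F), Function.Injective ρ →
      ∀ g : G, ¬ IsOfFinOrder g →
      ∀ (q : ℕ) (e : Fin q → Fin q → G → ℂ), IsIdempotentL1 e →
        hsCoeff e (ConjClasses.mk g) = 0) ∧
    (∀ (G : Type u) [Group G] (F : Type v) [Field F] (p : ℕ) (_ : p.Prime) (_ : CharP F p)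
      (n : ℕ) (ρ : G →* GL (Fin n) F), Function.Injective ρ →
      {C : ConjClasses G | ∃ g : G, IsOfFinOrder g ∧ ConjClasses.mk g = C}.Finite →
      L1Bass G) ∧
    (∀ (ι : Type v) (G : ι → Type u) [∀ i, Group (G i)],
      (∀ i, L1Bass (G i)) → L1Bass (Monoid.CoprodI G)) := by
  have key : ∀ (G : Type u) [Group G] (F : Type v) [Field F] (p : ℕ) (_ : p.Prime)
      (_ : CharP F p) (n : ℕ) (ρ : G →* GL (Fin n) F), Function.Injective ρ →
      ∀ g : G, ¬ IsOfFinOrder g →
      ∀ (q : ℕ) (e : Fin q → Fin q → G → ℂ), IsIdempotentL1 e →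
        hsCoeff e (ConjClasses.mk g) = 0 := by
    intro G _ F _ p hp hF n ρ hρ g hg q e he
    have : Fact p.Prime := ⟨hp⟩
    refine Vale.Agent.H18.hsCoeff_eq_zero_of_linear_charP p ρ g ?_ e he
    intro h
    apply hg
    rw [isOfFinOrder_iff_pow_eq_one] at h ⊢
    obtain ⟨k, hk, hk'⟩ := h
    exact ⟨k, hk, hρ (by rw [map_pow, hk', map_one])⟩
  refine ⟨?_, key, ?_, ?_⟩
  · intro G _ F _ n ρ g h q e he
    exact Vale.Agent.H18.hsCoeff_eq_zero_of_linear ρ g h e he
  · intro G _ F _ p hp hF n ρ hρ hfin q e he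
    refine ⟨hfin.toFinset, ?_, ?_⟩
    · intro g hg
      rw [Set.Finite.mem_toFinset] at hg
      obtain ⟨h, hh, hgh⟩ := hg
      rw [ConjClasses.mk_eq_mk_iff_isConj, isConj_iff] at hgh
      obtain ⟨c, hc⟩ := hgh
      rw [← hc]
      rw [isOfFinOrder_iff_pow_eq_one] at hh ⊢
      obtain ⟨k, hk, hk'⟩ := hh
      exact ⟨k, hk, by rw [conj_pow, hk']; group⟩
    · intro C hC
      obtain ⟨g, rfl⟩ := ConjClasses.exists_rep C
      refine key G F p hp hF n ρ hρ g ?_ q e he
      intro hg
      apply hC
      rw [Set.Finite.mem_toFinset]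
      exact ⟨g, hg, rfl⟩
  · intro ι G _ h
    exact Vale.Agent.H18.l1Bass_coprodI h

end Vale.Agent.Results.P184.Linear
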